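import Vale.Agent.P124.H186.T4core

/-! P124 (helper822), T4 case S: two points of the near region have nearly equal values of every
functional (pure induction on the time, no chains). -/

namespace P124H186

variable {g : Geo} {n : ℕ} {t0 : ℕ} {rho : ℝ} {sig : ℕ → ℝ}

namespace CaseS

/-- lower bound of `sig` on the region of the merging lemma -/
theorem merge_low (hg : Valid n g) (ht0 : t0 ≤ n) (hrho : 0 < rho) {b : ℕ} (hb : b ≤ t0)
    (hsig : IsSig g b t0 sig) (hd : g.D t0 b ≤ 10^8 * rho)
    {x y : ℕ} (hx : x ≤ t0) (hy : y ≤ t0)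
    (h1 : g.D t0 x + sig x + 11/10 * (g.D x y + sig x + sig y) <
      g.D t0 b + 32/10 * (sig b - rho / 10^6))
    (h2 : g.D t0 y + sig y + 11/10 * (g.D x y + sig x + sig y) <
      g.D t0 b + 32/10 * (sig b - rho / 10^6)) :
    sig b - rho / 10^6 ≤ sig x ∧ sig b - rho / 10^6 ≤ sig y := by
  have hlx := hsig.lower hg ht0 (p := b) le_rfl hb (c := x) hx
  have hly := hsig.lower hg ht0 (p := b) le_rfl hb (c := y) hy
  have htx := hg.D_tri b (by omega) t0 ht0 x (by omega)
  have hty := hg.D_tri b (by omega) t0 ht0 y (by omega)
  have hs := hg.D_symm b (by omega) t0 ht0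
  have h0x := hg.D_nonneg (i := t0) (j := x) ht0 (by omega)
  have h0y := hg.D_nonneg (i := t0) (j := y) ht0 (by omega)
  have h0b := hg.D_nonneg (i := t0) (j := b) ht0 (by omega)
  have hxy := hg.D_nonneg (i := x) (j := y) (by omega) (by omega)
  constructor <;> linarith

/-- two points of the near region have nearly equal values of every functional -/
theorem merge (hg : Valid n g) (ht0 : t0 ≤ n) (hrho : 0 < rho) {b : ℕ}
    (hsig : IsSig g b t0 sig) (hd : g.D t0 b ≤ 10^8 * rho)
    (hnb : ∀ k ≤ b, g.D t0 b ≤ g.D t0 k) {t : ℕ} (hbt : b ≤ t) :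
    t ≤ t0 → ∀ x ≤ t, ∀ y ≤ t,
    g.D t0 x + sig x + 11/10 * (g.D x y + sig x + sig y) <
      g.D t0 b + 32/10 * (sig b - rho / 10^6) →
    g.D t0 y + sig y + 11/10 * (g.D x y + sig x + sig y) <
      g.D t0 b + 32/10 * (sig b - rho / 10^6) →
    ∀ s ∈ g.S t, s x - s y ≤ sig x + sig y - 2 * (sig b - rho / 10^6) +
      3 / 10^15 * (g.D x y + sig x + sig y - 2 * (sig b - rho / 10^6)) := by
  induction t, hbt using Nat.le_induction with
  | base =>
    intro hb x hx y hy h1 h2 s hs
    exfalso
    obtain ⟨hlx, hly⟩ := merge_low hg ht0 hrho hb hsig hd (by omega) (by omega) h1 h2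
    have hxy := hg.D_nonneg (i := x) (j := y) (by omega) (by omega)
    have := hnb x hx
    linarith
  | succ t hbt ih =>
    intro ht x hx y hy h1 h2 s hs
    obtain ⟨hlx, hly⟩ := merge_low hg ht0 hrho (by omega) hsig hd (by omega) (by omega) h1 h2
    have hs' := hg.S_res t (by omega) s hs
    by_cases hxy : x = y
    · subst hxy
      have := hg.D_self x (by omega)
      linarith
    rcases Nat.lt_or_ge t x with hxt | hxt
    · have hxe : x = t + 1 := by omega
      subst hxe
      have hyt : y ≤ t := by omega
      by_cases hA : g.isA (t+1)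
      · obtain ⟨l, hl, hD⟩ := hg.A_eq t (by omega) hA y hyt
        have hf := abs_le.1 (hg.flatA (t' := t0) (by omega) ht0 hA hsig.mem hl)
        have hfs := abs_le.1 (hg.A_flat t (by omega) hA s hs l hl)
        have hP := hg.P_nonneg (t := t) (by omega) hA hl
        have hle := hg.A_le t (by omega) hA l hl l hl
        have h0 := hg.D_self l (by omega)
        have htri := hg.D_tri t0 ht0 (t+1) (by omega) l (by omega)
        have := ih (by omega) l hl y hyt (by linarith [hf.1, hf.2]) (by linarith [hf.1, hf.2])
          s hs'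
        linarith [hf.1, hf.2, hfs.1, hfs.2]
      · obtain ⟨l, hl, hD⟩ := hsig.maxB t hbt (by omega) hA
        have hfs := abs_le.1 (hg.lip (by omega) hs (i := t+1) (j := l) le_rfl (by omega))
        have htri := hg.D_tri t0 ht0 (t+1) (by omega) l (by omega)
        have htri2 := hg.D_tri l (by omega) (t+1) (by omega) y (by omega)
        have hsy := hg.D_symm l (by omega) (t+1) (by omega)
        have := ih (by omega) l hl y hyt (by linarith) (by linarith) s hs'
        linarith [hfs.1, hfs.2]
    · rcases Nat.lt_or_ge t y with hyt | hyt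
      · have hye : y = t + 1 := by omega
        subst hye
        have hsxy := hg.D_symm x (by omega) (t+1) (by omega)
        by_cases hA : g.isA (t+1)
        · obtain ⟨l, hl, hD⟩ := hg.A_eq t (by omega) hA x hxt
          have hf := abs_le.1 (hg.flatA (t' := t0) (by omega) ht0 hA hsig.mem hl)
          have hfs := abs_le.1 (hg.A_flat t (by omega) hA s hs l hl)
          have hP := hg.P_nonneg (t := t) (by omega) hA hl
          have hle := hg.A_le t (by omega) hA l hl l hl
          have h0 := hg.D_self l (by omega)
          have htri := hg.D_tri t0 ht0 (t+1) (by omega) l (by omega)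
          have hsxl := hg.D_symm x (by omega) l (by omega)
          have := ih (by omega) x hxt l hl (by linarith [hf.1, hf.2]) (by linarith [hf.1, hf.2])
            s hs'
          linarith [hf.1, hf.2, hfs.1, hfs.2]
        · obtain ⟨l, hl, hD⟩ := hsig.maxB t hbt (by omega) hA
          have hfs := abs_le.1 (hg.lip (by omega) hs (i := t+1) (j := l) le_rfl (by omega))
          have htri := hg.D_tri t0 ht0 (t+1) (by omega) l (by omega)
          have htri2 := hg.D_tri x (by omega) (t+1) (by omega) l (by omega)
          have := ih (by omega) x hxt l hl (by linarith) (by linarith) s hs'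
          linarith [hfs.1, hfs.2]
      · exact ih (by omega) x hxt y hyt h1 h2 s hs'

end CaseS

end P124H186
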